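import Vale.Agent.Snaky.P2.Final

/-- After Maker's first move at the origin, Maker wins against every Breaker reply `b` other than
the origin and its four edge neighbours `(±1, 0)`, `(0, ±1)`. -/
theorem Vale.Agent.Results.P062.EdgeRepliesOnly.result :
    ∀ b : ℤ × ℤ, ¬ (b.1.natAbs + b.2.natAbs ≤ 1) →
      Vale.Agent.Snaky.MakerWinsWithin 15 {((0 : ℤ), (0 : ℤ))} {b} :=
  Vale.Agent.Snaky.P2.win
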