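import Vale.Agent.helper2.SnakyDefs
import Vale.Agent.helper2.SnakyDagTop
import Vale.Agent.helper2.SnakyD.B2_0
import Vale.Agent.helper2.SnakyD.B2_1
import Vale.Agent.helper2.SnakyD.B2_2
import Vale.Agent.helper2.SnakyD.B3_0
import Vale.Agent.helper2.SnakyD.B3_1
import Vale.Agent.helper2.SnakyD.B3_2
import Vale.Agent.helper2.SnakyD.B4_0
import Vale.Agent.helper2.SnakyD.B4_1
import Vale.Agent.helper2.SnakyD.B5_0
import Vale.Agent.helper2.SnakyD.B5_1
import Vale.Agent.helper2.SnakyE.SE_b11_0

namespace Vale.Agent.Results.P062.ExceptEdge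

open Vale.Agent.helper2.Snaky

/-- the supports of the base strategies -/
def masks : List ℕ := [
  Vale.Agent.helper2.Snaky.DB2_0.U,
  Vale.Agent.helper2.Snaky.DB2_1.U,
  Vale.Agent.helper2.Snaky.DB2_2.U,
  Vale.Agent.helper2.Snaky.DB3_0.U,
  Vale.Agent.helper2.Snaky.DB3_1.U,
  Vale.Agent.helper2.Snaky.DB3_2.U,
  Vale.Agent.helper2.Snaky.DB4_0.U,
  Vale.Agent.helper2.Snaky.DB4_1.U,
  Vale.Agent.helper2.Snaky.DB5_0.U,
  Vale.Agent.helper2.Snaky.DB5_1.U,
  Vale.Agent.helper2.Snaky.SE_b11_0.U]

theorem masks_ok : ∀ u ∈ masks, ∀ x, x ∉ cells u → W x := by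
  intro u hu
  simp only [masks, List.mem_cons, List.not_mem_nil, or_false] at hu
  rcases hu with rfl | rfl | rfl | rfl | rfl | rfl | rfl | rfl | rfl | rfl | rfl
  · exact Vale.Agent.helper2.Snaky.DB2_0.base
  · exact Vale.Agent.helper2.Snaky.DB2_1.base
  · exact Vale.Agent.helper2.Snaky.DB2_2.base
  · exact Vale.Agent.helper2.Snaky.DB3_0.base
  · exact Vale.Agent.helper2.Snaky.DB3_1.base
  · exact Vale.Agent.helper2.Snaky.DB3_2.base
  · exact Vale.Agent.helper2.Snaky.DB4_0.base
  · exact Vale.Agent.helper2.Snaky.DB4_1.base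
  · exact Vale.Agent.helper2.Snaky.DB5_0.base
  · exact Vale.Agent.helper2.Snaky.DB5_1.base
  · exact base_of_valid (by decide +kernel) Vale.Agent.helper2.Snaky.SE_b11_0.valid

/-- the origin and its four edge neighbours, in index form -/
def near4 (i : ℕ) : Bool :=
  (i == 480) || (i == 479) || (i == 481) || (i == 449) || (i == 511)

theorem cover_ok : (List.range 961).all
    (fun i => !(Vale.Agent.helper2.Snaky.DB2_2.U.testBit i) || near4 i || cov masks i) = true := by
  decide +kernel

theorem lt_ok : Vale.Agent.helper2.Snaky.DB2_2.U < 2 ^ 961 := by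
  decide +kernel

/-- Maker has first claimed the origin and Breaker has replied at a cell `x` that is neither the
origin nor one of its four edge neighbours: then Maker has a forced win. -/
theorem result (x : ℤ × ℤ) (hx : 2 ≤ |x.1| + |x.2|) :
    MakerWins {((0 : ℤ), (0 : ℤ))} {x} := by
  refine wins_of_cov masks_ok (by simp [masks]) lt_ok near4 cover_ok x ?_
  rintro i rfl
  unfold near4
  unfold dec at hx
  simp only at hx
  have h1 : ¬ (i = 480) := by
    rintro rfl
    norm_num at hx
  have h2 : ¬ (i = 479) := by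
    rintro rfl
    norm_num at hx
  have h3 : ¬ (i = 481) := by
    rintro rfl
    norm_num at hx
  have h4 : ¬ (i = 449) := by
    rintro rfl
    norm_num at hx
  have h5 : ¬ (i = 511) := by
    rintro rfl
    norm_num at hx
  simp [h1, h2, h3, h4, h5]

end Vale.Agent.Results.P062.ExceptEdge
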