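import Vale.Agent.Snaky.Full

/-- Maker has a winning strategy in the achievement game for Snaky on the initially empty board
`ℤ × ℤ`, with no handicap: with Maker to move and no cell claimed, Maker forces a copy of Snaky within
`20` of its moves against every legal play of Breaker. -/
theorem Vale.Agent.Results.P062.MakerWins.result :
    Vale.Agent.Snaky.MakerWinsWithin 20 ∅ ∅ :=
  Vale.Agent.Snaky.maker_wins
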