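import Vale.Agent.Snaky.P1.Final

/-- After Maker's first move at the origin, Maker wins against every Breaker reply `b` outside the
twenty cells with `|x| ≤ 2`, `|y| ≤ 2`, `|x| + |y| ≤ 3` (and the origin). -/
theorem Vale.Agent.Results.P062.NearRepliesOnly.result :
    ∀ b : ℤ × ℤ, ¬ (b.1.natAbs ≤ 2 ∧ b.2.natAbs ≤ 2 ∧ b.1.natAbs + b.2.natAbs ≤ 3) →
      Vale.Agent.Snaky.MakerWinsWithin 13 {((0 : ℤ), (0 : ℤ))} {b} :=
  Vale.Agent.Snaky.P1.win
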