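import Vale.Agent.helper2.SnakyDefs
import Vale.Agent.helper2.SnakySym
import Vale.Agent.helper2.SnakyD.B2_0
import Vale.Agent.helper2.SnakyD.B2_1
import Vale.Agent.helper2.SnakyD.B2_2
import Vale.Agent.helper2.SnakyD.B3_0
import Vale.Agent.helper2.SnakyD.B3_1
import Vale.Agent.helper2.SnakyD.B3_2
import Vale.Agent.helper2.SnakyD.B4_0
import Vale.Agent.helper2.SnakyD.B4_1
import Vale.Agent.helper2.SnakyD.B5_0
import Vale.Agent.helper2.SnakyD.B5_1

namespace Vale.Agent.Results.P062.NonAdjacent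

open Vale.Agent.helper2.Snaky

/-- the supports of the ten base strategies -/
def masks : List ℕ := [
  Vale.Agent.helper2.Snaky.DB2_0.U,
  Vale.Agent.helper2.Snaky.DB2_1.U,
  Vale.Agent.helper2.Snaky.DB2_2.U,
  Vale.Agent.helper2.Snaky.DB3_0.U,
  Vale.Agent.helper2.Snaky.DB3_1.U,
  Vale.Agent.helper2.Snaky.DB3_2.U,
  Vale.Agent.helper2.Snaky.DB4_0.U,
  Vale.Agent.helper2.Snaky.DB4_1.U,
  Vale.Agent.helper2.Snaky.DB5_0.U,
  Vale.Agent.helper2.Snaky.DB5_1.U]

theorem masks_ok : ∀ u ∈ masks, ∀ x, x ∉ cells u → W x := by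
  intro u hu
  simp only [masks, List.mem_cons, List.not_mem_nil, or_false] at hu
  rcases hu with rfl | rfl | rfl | rfl | rfl | rfl | rfl | rfl | rfl | rfl
  · exact Vale.Agent.helper2.Snaky.DB2_0.base
  · exact Vale.Agent.helper2.Snaky.DB2_1.base
  · exact Vale.Agent.helper2.Snaky.DB2_2.base
  · exact Vale.Agent.helper2.Snaky.DB3_0.base
  · exact Vale.Agent.helper2.Snaky.DB3_1.base
  · exact Vale.Agent.helper2.Snaky.DB3_2.base
  · exact Vale.Agent.helper2.Snaky.DB4_0.base
  · exact Vale.Agent.helper2.Snaky.DB4_1.base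
  · exact Vale.Agent.helper2.Snaky.DB5_0.base
  · exact Vale.Agent.helper2.Snaky.DB5_1.base

theorem cover_ok : (List.range 961).all
    (fun i => !(Vale.Agent.helper2.Snaky.DB2_2.U.testBit i) || nearI i || cov masks i) = true := by
  decide +kernel

theorem lt_ok : Vale.Agent.helper2.Snaky.DB2_2.U < 2 ^ 961 := by
  decide +kernel

/-- Maker has first claimed the origin and Breaker has replied at a cell `x` that is not one of the
eight cells sharing an edge or a corner with the origin: then Maker has a forced win. -/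
theorem result (x : ℤ × ℤ) (hx : 2 ≤ |x.1| ∨ 2 ≤ |x.2|) :
    MakerWins {((0 : ℤ), (0 : ℤ))} {x} :=
  far_wins masks_ok (by simp [masks]) lt_ok cover_ok x hx

end Vale.Agent.Results.P062.NonAdjacent
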